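import Mathlib

/-! P208: doubling subsets of a Hilbert space with large flat pieces. -/

namespace Vale.Agent.P208

open Finset

variable {H : Type*} [NormedAddCommGroup H] [InnerProductSpace ℝ H]

/-- Every ball of `X` is covered by at most `N` balls of half its radius with centres in `X`. -/
def DoublingWith (X : Set H) (N : ℕ) : Prop :=
  ∀ x ∈ X, ∀ r : ℝ, 0 < r → ∃ c : Finset H, (∀ y ∈ c, y ∈ X) ∧ c.card ≤ N ∧
    ∀ z ∈ X, dist z x < r → ∃ y ∈ c, dist z y ≤ r / 2

/-- a doubling set does not contain nearly orthogonal frames with more than `N` elements -/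
theorem frame {X : Set H} {N : ℕ} (hX : DoublingWith X N) {p : H} (hp : p ∈ X) {R : ℝ} (hR : 0 < R)
    {n : ℕ} (e : Fin n → H) (he : Orthonormal ℝ e)
    (h : ∀ i, ∃ x ∈ X, ‖x - (p + R • e i)‖ ≤ R / 20) : n ≤ N := by
  choose x hxX hx using h
  obtain ⟨c, _, hcard, hcov⟩ := hX p hp (11 / 10 * R) (by positivity)
  have hball : ∀ i, dist (x i) p < 11 / 10 * R := by
    intro i
    have h1 : x i - p = (x i - (p + R • e i)) + R • e i := by abel
    have h2 : ‖R • e i‖ = R := by
      rw [norm_smul, he.1 i, Real.norm_eq_abs, abs_of_pos hR, mul_one]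
    rw [dist_eq_norm, h1]
    have h3 := norm_add_le (x i - (p + R • e i)) (R • e i)
    have h4 := hx i
    rw [h2] at h3
    linarith
  choose y hyc hy using fun i => hcov (x i) (hxX i) (hball i)
  have hinj : Function.Injective y := by
    intro i j hij
    by_contra hne
    have h1 : ‖x i - x j‖ ≤ 11 / 10 * R := by
      have h2 := dist_triangle (x i) (y i) (x j)
      have h3 := hy i
      have h4 := hy j
      rw [← hij, dist_comm] at h4
      rw [← dist_eq_norm]
      linarith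
    have h5 : ‖R • e i - R • e j‖ ≤ 12 / 10 * R := by
      have h6 : R • e i - R • e j = (x i - x j) - (x i - (p + R • e i)) +
          (x j - (p + R • e j)) := by abel
      rw [h6]
      have h7 := norm_add_le ((x i - x j) - (x i - (p + R • e i))) (x j - (p + R • e j))
      have h8 := norm_sub_le (x i - x j) (x i - (p + R • e i))
      have h9 := hx i
      have h10 := hx j
      linarith
    have h11 : ‖e i - e j‖ ^ 2 = 2 := by
      rw [norm_sub_sq_real, he.1 i, he.1 j, he.2 hne]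
      norm_num
    have h12 : ‖R • e i - R • e j‖ = R * ‖e i - e j‖ := by
      rw [← smul_sub, norm_smul, Real.norm_eq_abs, abs_of_pos hR]
    rw [h12] at h5
    have h13 : ‖e i - e j‖ ≤ 12 / 10 := by
      rw [mul_comm] at h5
      exact le_of_mul_le_mul_right h5 hR
    nlinarith [norm_nonneg (e i - e j)]
  calc n = (univ : Finset (Fin n)).card := by simp
    _ ≤ c.card := Finset.card_le_card_of_injOn y (fun i _ => hyc i) (fun i _ j _ h => hinj h)
    _ ≤ N := hcard

/-- `X` is flat: for every finite subset `F` of `X`, up to a relative error `1/20` the set `X`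
contains a ball of a translate of the span of the differences of the points of `F`. -/
def LargeFlat (X : Set H) : Prop :=
  ∀ F : Finset H, (∀ x ∈ F, x ∈ X) → F.Nonempty → ∃ p ∈ X, ∃ R : ℝ, 0 < R ∧
    ∀ v ∈ vectorSpan ℝ (F : Set H), ‖v‖ ≤ R → ∃ x ∈ X, ‖x - (p + v)‖ ≤ R / 20

theorem card_le {X Y : Set H} {N : ℕ} (hX : DoublingWith X N) (hYX : Y ⊆ X) (hF : LargeFlat Y)
    {p₀ : H} (hp₀ : p₀ ∈ Y) (t : Finset H) (ht : ∀ u ∈ t, u + p₀ ∈ Y)
    (hli : LinearIndepOn ℝ id (t : Set H)) : t.card ≤ N := by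
  classical
  obtain ⟨p, hp, R, hR, hpR⟩ := hF (insert p₀ (t.image fun u => u + p₀)) (by
    intro x hx
    rcases Finset.mem_insert.1 hx with h | h
    · rw [h]; exact hp₀
    · obtain ⟨u, hu, rfl⟩ := Finset.mem_image.1 h
      exact ht u hu) ⟨p₀, Finset.mem_insert_self _ _⟩
  have hcard := finrank_span_finset_eq_card hli
  have hsub : Submodule.span ℝ (t : Set H) ≤
      vectorSpan ℝ ((insert p₀ (t.image fun u => u + p₀) : Finset H) : Set H) := by
    rw [Submodule.span_le]
    intro u hu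
    have h1 : u = (u + p₀) -ᵥ p₀ := by simp
    rw [h1]
    exact vsub_mem_vectorSpan ℝ (by
      simp only [Finset.coe_insert, Finset.coe_image]
      exact Or.inr ⟨u, hu, rfl⟩) (by simp)
  obtain ⟨W, hW⟩ : ∃ W : Submodule ℝ H, W = Submodule.span ℝ (t : Set H) := ⟨_, rfl⟩
  have : FiniteDimensional ℝ W := by
    rw [hW]; exact FiniteDimensional.span_finset ℝ t
  rw [← hW] at hcard hsub
  let b := stdOrthonormalBasis ℝ W
  have he : Orthonormal ℝ fun i => ((b i : W) : H) :=
    b.orthonormal.comp_linearIsometry W.subtypeₗᵢ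
  have hfin := frame hX (hYX hp) hR (fun i => ((b i : W) : H)) he (by
    intro i
    obtain ⟨x, hx, hx2⟩ := hpR _ (hsub (W.smul_mem R (b i).2)) (by
      rw [norm_smul, he.1 i, Real.norm_eq_abs, abs_of_pos hR, mul_one])
    exact ⟨x, hYX hx, hx2⟩)
  rw [← hcard]
  exact hfin

/-- a flat piece `Y` of a doubling set spans (from a base point) a space of dimension at most `N` -/
theorem piece {X Y : Set H} {N : ℕ} (hX : DoublingWith X N) (hYX : Y ⊆ X) (hF : LargeFlat Y)
    {p₀ : H} (hp₀ : p₀ ∈ Y) : ∃ t : Finset H, t.card ≤ N ∧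
      ∀ x ∈ Y, x - p₀ ∈ Submodule.span ℝ (t : Set H) := by
  classical
  obtain ⟨b, hb, hspan, hli⟩ := exists_linearIndependent ℝ ((fun x => x - p₀) '' Y)
  have hbX : ∀ u ∈ b, u + p₀ ∈ Y := by
    intro u hu
    obtain ⟨x, hx, rfl⟩ := hb hu
    simpa using hx
  have hli' : LinearIndepOn ℝ id b := hli
  have hfin : b.Finite := by
    by_contra hinf
    obtain ⟨t, htb, hcard⟩ := Set.Infinite.exists_subset_card_eq hinf (N + 1)
    have := card_le hX hYX hF hp₀ t (fun u hu => hbX u (htb hu)) (hli'.mono htb)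
    omega
  obtain ⟨t, ht⟩ : ∃ t : Finset H, (t : Set H) = b := ⟨hfin.toFinset, hfin.coe_toFinset⟩
  refine ⟨t, card_le hX hYX hF hp₀ t (fun u hu => hbX u (by rw [← ht]; exact hu))
    (by rw [ht]; exact hli'), ?_⟩
  intro x hx
  rw [ht, hspan]
  exact Submodule.subset_span ⟨x, hx, rfl⟩

/-- a subset of a translate of the span of `t` is isometric to a subset of `ℝ^k`, `k ≤ t.card` -/
theorem of_span {X : Set H} {M : ℕ} (p₀ : H) (t : Finset H) (ht : t.card ≤ M)
    (hX : ∀ x ∈ X, x - p₀ ∈ Submodule.span ℝ (t : Set H)) :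
    ∃ k ≤ M, ∃ f : H → EuclideanSpace ℝ (Fin k), ∀ x ∈ X, ∀ y ∈ X, dist (f x) (f y) = dist x y := by
  classical
  obtain ⟨W, hW⟩ : ∃ W : Submodule ℝ H, W = Submodule.span ℝ (t : Set H) := ⟨_, rfl⟩
  have : FiniteDimensional ℝ W := by
    rw [hW]; exact FiniteDimensional.span_finset ℝ t
  have hrk : Module.finrank ℝ W ≤ M := by
    rw [hW]
    exact (finrank_span_finset_le_card t).trans ht
  rw [← hW] at hX
  refine ⟨Module.finrank ℝ W, hrk,
    fun x => if h : x - p₀ ∈ W then (stdOrthonormalBasis ℝ W).repr ⟨x - p₀, h⟩ else 0, ?_⟩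
  intro x hx y hy
  simp only [dif_pos (hX x hx), dif_pos (hX y hy)]
  rw [LinearIsometryEquiv.dist_map, Subtype.dist_eq]
  simp [dist_eq_norm]

theorem embeds {X : Set H} {N : ℕ} (hX : DoublingWith X N) (hF : LargeFlat X) :
    ∃ k ≤ N, ∃ f : H → EuclideanSpace ℝ (Fin k), ∀ x ∈ X, ∀ y ∈ X, dist (f x) (f y) = dist x y := by
  rcases X.eq_empty_or_nonempty with h | ⟨p₀, hp₀⟩
  · exact ⟨0, Nat.zero_le _, fun _ => 0, fun x hx => by rw [h] at hx; exact absurd hx (by simp)⟩
  obtain ⟨t, ht, h⟩ := piece hX subset_rfl hF hp₀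
  exact of_span p₀ t ht h

theorem embeds_union {X : Set H} {N m : ℕ} (hX : DoublingWith X N) (Y : Fin m → Set H)
    (hXY : X = ⋃ i, Y i) (hF : ∀ i, LargeFlat (Y i)) :
    ∃ k ≤ m * (N + 1), ∃ f : H → EuclideanSpace ℝ (Fin k),
      ∀ x ∈ X, ∀ y ∈ X, dist (f x) (f y) = dist x y := by
  classical
  have h : ∀ i, ∃ t : Finset H, t.card ≤ N + 1 ∧ ∀ x ∈ Y i, x ∈ Submodule.span ℝ (t : Set H) := by
    intro i
    rcases (Y i).eq_empty_or_nonempty with h | ⟨p₀, hp₀⟩
    · exact ⟨∅, by simp, fun x hx => by rw [h] at hx; exact absurd hx (by simp)⟩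
    · have hYX : Y i ⊆ X := by rw [hXY]; exact Set.subset_iUnion Y i
      obtain ⟨t, ht, h⟩ := piece hX hYX (hF i) hp₀
      refine ⟨insert p₀ t, (Finset.card_insert_le _ _).trans (by omega), fun x hx => ?_⟩
      have h1 : x = (x - p₀) + p₀ := by abel
      rw [h1]
      refine Submodule.add_mem _ (Submodule.span_mono ?_ (h x hx)) (Submodule.subset_span ?_)
      · simp
      · simp
  choose t ht hs using h
  refine of_span 0 (univ.biUnion t) ?_ ?_
  · calc (univ.biUnion t).card ≤ ∑ i : Fin m, (t i).card := Finset.card_biUnion_le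
      _ ≤ ∑ _i : Fin m, (N + 1) := Finset.sum_le_sum fun i _ => ht i
      _ = m * (N + 1) := by simp
  · intro x hx
    rw [sub_zero]
    rw [hXY] at hx
    obtain ⟨i, hi⟩ := Set.mem_iUnion.1 hx
    refine Submodule.span_mono ?_ (hs i x hi)
    intro u hu
    simp only [Finset.coe_biUnion, Set.mem_iUnion]
    exact ⟨i, Finset.mem_coe.2 (mem_univ i), hu⟩

end Vale.Agent.P208
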