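import Mathlib
import Vale.Agent.P208.Flat

/-! P208: convex sets and sets closed under addition are flat. -/

namespace Vale.Agent.P208

open Finset

variable {H : Type*} [NormedAddCommGroup H] [InnerProductSpace ℝ H]

/-- bounded coefficients for the vectors in the span of the differences of a finite set -/
theorem coeffs (F : Finset H) : ∃ C : ℝ, 0 < C ∧ ∀ v ∈ vectorSpan ℝ (F : Set H),
    ∃ w : F → ℝ, ∑ f, w f = 0 ∧ ∑ f, w f • (f : H) = v ∧ ∀ f, |w f| ≤ C * ‖v‖ := by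
  classical
  let S : (F → ℝ) →ₗ[ℝ] ℝ := ∑ f, LinearMap.proj f
  let T : (F → ℝ) →ₗ[ℝ] H := ∑ f : F, (LinearMap.proj f : (F → ℝ) →ₗ[ℝ] ℝ).smulRight (f : H)
  let T2 : LinearMap.ker S →ₗ[ℝ] H := T.comp (LinearMap.ker S).subtype
  have hS : ∀ w : F → ℝ, S w = ∑ f, w f := by intro w; simp [S]
  have hT : ∀ w : F → ℝ, T w = ∑ f, w f • (f : H) := by intro w; simp [T]
  obtain ⟨g, hg⟩ := LinearMap.exists_rightInverse_of_surjective T2.rangeRestrict
    (LinearMap.range_rangeRestrict T2)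
  let G := LinearMap.toContinuousLinearMap g
  have hV : vectorSpan ℝ (F : Set H) ≤ LinearMap.range T2 := by
    rw [vectorSpan_def, Submodule.span_le]
    rintro _ ⟨a, ha, b, hb, rfl⟩
    have ha' : a ∈ F := ha
    have hb' : b ∈ F := hb
    refine ⟨⟨Pi.single ⟨a, ha'⟩ 1 - Pi.single ⟨b, hb'⟩ 1, ?_⟩, ?_⟩
    · rw [LinearMap.mem_ker, hS]
      simp
    · change T (Pi.single ⟨a, ha'⟩ 1 - Pi.single ⟨b, hb'⟩ 1) = _
      rw [map_sub, hT, hT]
      simp [Pi.single_apply, ite_smul]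
  refine ⟨‖G‖ + 1, by positivity, fun v hv => ?_⟩
  have h1 := hV hv
  refine ⟨((G ⟨v, h1⟩ : LinearMap.ker S) : F → ℝ), ?_, ?_, ?_⟩
  · have := (G ⟨v, h1⟩).2
    rw [LinearMap.mem_ker, hS] at this
    exact this
  · have h2 := LinearMap.congr_fun hg ⟨v, h1⟩
    have h3 := congrArg Subtype.val h2
    have h4 : T ((g ⟨v, h1⟩ : LinearMap.ker S) : F → ℝ) = v := h3
    rw [← hT]
    exact h4
  · intro f
    have h5 := norm_le_pi_norm ((G ⟨v, h1⟩ : LinearMap.ker S) : F → ℝ) f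
    have h6 := G.le_opNorm ⟨v, h1⟩
    have h7 : ‖(⟨v, h1⟩ : LinearMap.range T2)‖ = ‖v‖ := rfl
    have h8 : ‖((G ⟨v, h1⟩ : LinearMap.ker S) : F → ℝ)‖ = ‖G ⟨v, h1⟩‖ := rfl
    rw [← Real.norm_eq_abs]
    rw [h7] at h6
    rw [h8] at h5
    have h9 : 0 ≤ ‖v‖ := norm_nonneg v
    linarith

/-- a convex set contains a ball of a translate of the span of the differences of finitely many of
its points -/
theorem convex_exact {X : Set H} (hX : Convex ℝ X) (F : Finset H) (hF : ∀ x ∈ F, x ∈ X)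
    (hne : F.Nonempty) : ∃ p ∈ X, ∃ R : ℝ, 0 < R ∧
    ∀ v ∈ vectorSpan ℝ (F : Set H), ‖v‖ ≤ R → p + v ∈ X := by
  classical
  obtain ⟨C, hC, hco⟩ := coeffs F
  have hn : 0 < F.card := hne.card_pos
  have hn' : (0:ℝ) < F.card := by exact_mod_cast hn
  have hcard : (univ : Finset F).card = F.card := by simp
  have key : ∀ w : F → ℝ, (∀ f, 0 ≤ 1 / (F.card : ℝ) + w f) → ∑ f, w f = 0 →
      ∑ f : F, (1 / (F.card : ℝ) + w f) • (f : H) ∈ X := by
    intro w h0 h1
    refine hX.sum_mem (fun f _ => h0 f) ?_ (fun f _ => hF f f.2)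
    rw [sum_add_distrib, h1, add_zero, sum_const, hcard, nsmul_eq_mul]
    field_simp
  refine ⟨∑ f : F, (1 / (F.card : ℝ)) • (f : H), ?_, 1 / (F.card * C), by positivity, ?_⟩
  · have := key (fun _ => 0) (fun f => by simp) (by simp)
    simpa using this
  · intro v hv hvR
    obtain ⟨w, hw0, hwv, hw⟩ := hco v hv
    have h1 : ∑ f : F, (1 / (F.card : ℝ) + w f) • (f : H) =
        ∑ f : F, (1 / (F.card : ℝ)) • (f : H) + v := by
      rw [← hwv, ← sum_add_distrib]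
      exact sum_congr rfl fun f _ => add_smul _ _ _
    rw [← h1]
    refine key w (fun f => ?_) hw0
    have h1 := hw f
    have h2 : C * ‖v‖ ≤ 1 / F.card := by
      have h3 := mul_le_mul_of_nonneg_left hvR hC.le
      have h4 : C * (1 / (F.card * C)) = 1 / F.card := by field_simp
      rw [h4] at h3
      exact h3
    have h5 := neg_le_of_abs_le (h1.trans h2)
    linarith

/-- sets with convex closure are flat -/
theorem closure_flat {X : Set H} (hX : Convex ℝ (closure X)) : LargeFlat X := by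
  intro F hF hne
  have hne' : F.Nonempty := hne
  obtain ⟨p, hp, R, hR, h⟩ := convex_exact hX F (fun x hx => subset_closure (hF x hx)) hne
  obtain ⟨p', hp', hpp⟩ := Metric.mem_closure_iff.1 hp (R / 40) (by positivity)
  refine ⟨p', hp', R, hR, fun v hv hvR => ?_⟩
  obtain ⟨x, hx, hxx⟩ := Metric.mem_closure_iff.1 (h v hv hvR) (R / 40) (by positivity)
  refine ⟨x, hx, ?_⟩
  have h1 : x - (p' + v) = (x - (p + v)) + (p - p') := by abel
  rw [h1]
  refine (norm_add_le _ _).trans ?_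
  rw [dist_eq_norm] at hpp
  rw [dist_comm, dist_eq_norm] at hxx
  linarith

/-- sets closed under addition are flat -/
theorem add_flat {X : Set H} (hX : ∀ x ∈ X, ∀ y ∈ X, x + y ∈ X) : LargeFlat X := by
  classical
  intro F hF hne
  obtain ⟨C, hC, hco⟩ := coeffs F
  have hsmul : ∀ f ∈ X, ∀ k : ℕ, 1 ≤ k → (k : ℝ) • f ∈ X := by
    intro f hf k hk
    induction k, hk using Nat.le_induction with
    | base => simpa using hf
    | succ k hk ih =>
      have : ((k + 1 : ℕ) : ℝ) • f = (k : ℝ) • f + f := by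
        push_cast
        rw [add_smul, one_smul]
      rw [this]
      exact hX _ ih _ hf
  have hne' : (univ : Finset F).Nonempty := by
    obtain ⟨f, hf⟩ := hne
    exact ⟨⟨f, hf⟩, mem_univ _⟩
  have key : ∀ k : F → ℕ, (∀ f, 1 ≤ k f) → ∑ f : F, (k f : ℝ) • (f : H) ∈ X := by
    intro k hk
    exact Finset.sum_induction_nonempty (fun f : F => (k f : ℝ) • (f : H)) (· ∈ X)
      (fun a b ha hb => hX a ha b hb) hne' (fun f _ => hsmul f (hF f f.2) (k f) (hk f))
  obtain ⟨A, hA⟩ : ∃ A : ℝ, A = ∑ f : F, ‖(f : H)‖ := ⟨_, rfl⟩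
  have hA0 : 0 ≤ A := by rw [hA]; exact sum_nonneg fun f _ => norm_nonneg _
  obtain ⟨m, hm⟩ := exists_nat_gt (C * (20 * (A + 1)) + 1)
  have hm1 : 1 ≤ m := by
    have h1 : (0:ℝ) < C * (20 * (A + 1)) := by positivity
    have : (1:ℝ) < m := by linarith
    exact_mod_cast this.le
  refine ⟨∑ f : F, (m : ℝ) • (f : H), key (fun _ => m) (fun _ => hm1), 20 * (A + 1),
    by positivity, ?_⟩
  intro v hv hvR
  obtain ⟨w, hw0, hwv, hw⟩ := hco v hv
  have hwm : ∀ f, 1 < (m : ℝ) + w f := by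
    intro f
    have h1 := neg_le_of_abs_le ((hw f).trans (mul_le_mul_of_nonneg_left hvR hC.le))
    linarith
  refine ⟨∑ f : F, (⌈(m : ℝ) + w f⌉₊ : ℝ) • (f : H), key (fun f => ⌈(m : ℝ) + w f⌉₊)
    (fun f => Nat.one_le_ceil_iff.2 (by linarith [hwm f])), ?_⟩
  have h1 : ∑ f : F, (⌈(m : ℝ) + w f⌉₊ : ℝ) • (f : H) -
      (∑ f : F, (m : ℝ) • (f : H) + v) =
      ∑ f : F, ((⌈(m : ℝ) + w f⌉₊ : ℝ) - (m + w f)) • (f : H) := by
    rw [← hwv, ← sum_add_distrib, ← sum_sub_distrib]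
    exact sum_congr rfl fun f _ => by rw [sub_smul, add_smul]
  rw [h1]
  have h2 : ‖∑ f : F, ((⌈(m : ℝ) + w f⌉₊ : ℝ) - (m + w f)) • (f : H)‖ ≤ A := by
    rw [hA]
    refine (norm_sum_le _ _).trans (sum_le_sum fun f _ => ?_)
    rw [norm_smul]
    have h3 : ‖(⌈(m : ℝ) + w f⌉₊ : ℝ) - (m + w f)‖ ≤ 1 := by
      rw [Real.norm_eq_abs, abs_le]
      have h4 := Nat.le_ceil ((m : ℝ) + w f)
      have h5 := Nat.ceil_lt_add_one (show (0:ℝ) ≤ (m : ℝ) + w f by linarith [hwm f])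
      constructor <;> linarith
    calc ‖(⌈(m : ℝ) + w f⌉₊ : ℝ) - (m + w f)‖ * ‖(f : H)‖ ≤ 1 * ‖(f : H)‖ :=
          mul_le_mul_of_nonneg_right h3 (norm_nonneg _)
      _ = ‖(f : H)‖ := one_mul _
  linarith

end Vale.Agent.P208
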